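import Vale.Agent.P252.R.Spec

/-! C3: the limit wedge lemma (helper422). -/

open scoped ContDiff Topology
open Filter MeasureTheory

namespace Vale.Agent.P252.H422

open Vale.Agent.P252.R

/-! ### basic facts on ultralimits -/

theorem isClosed_ulim {V : Type*} [SeminormedAddCommGroup V] (K : ℕ → Set V) :
    IsClosed (ulim K) := by
  rw [← isOpen_compl_iff, Metric.isOpen_iff]
  intro p hp
  rw [Set.mem_compl_iff] at hp
  have hp' : ∃ ε : ℝ, 0 < ε ∧ ¬ ∀ᶠ j in (hyperfilter ℕ : Filter ℕ), ∃ q ∈ K j, ‖p - q‖ ≤ ε := by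
    by_contra hcon
    apply hp
    intro ε hε
    by_contra h2
    exact hcon ⟨ε, hε, h2⟩
  obtain ⟨ε, hε, h⟩ := hp'
  refine ⟨ε / 2, by positivity, fun q hq hq' => ?_⟩
  apply h
  have h2 := hq' (ε / 2) (by positivity)
  filter_upwards [h2] with j hj
  obtain ⟨s, hs, hs2⟩ := hj
  refine ⟨s, hs, ?_⟩
  have h3 : ‖q - p‖ < ε / 2 := by rwa [Metric.mem_ball, dist_eq_norm] at hq
  calc ‖p - s‖ = ‖(q - s) - (q - p)‖ := by congr 1; abel
    _ ≤ ‖q - s‖ + ‖q - p‖ := norm_sub_le _ _
    _ ≤ ε := by linarith

theorem convex_ulim {V : Type*} [SeminormedAddCommGroup V] [NormedSpace ℝ V] (K : ℕ → Set V)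
    (h : ∀ j, Convex ℝ (K j)) : Convex ℝ (ulim K) := by
  intro p hp q hq a b ha hb hab ε hε
  filter_upwards [hp ε hε, hq ε hε] with j h1 h2
  obtain ⟨p', hp', hp2⟩ := h1
  obtain ⟨q', hq', hq2⟩ := h2
  refine ⟨a • p' + b • q', h j hp' hq' ha hb hab, ?_⟩
  calc ‖a • p + b • q - (a • p' + b • q')‖ = ‖a • (p - p') + b • (q - q')‖ := by
        congr 1; rw [smul_sub, smul_sub]; abel
    _ ≤ ‖a • (p - p')‖ + ‖b • (q - q')‖ := norm_add_le _ _
    _ = a * ‖p - p'‖ + b * ‖q - q'‖ := by
        rw [norm_smul, norm_smul, Real.norm_of_nonneg ha, Real.norm_of_nonneg hb]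
    _ ≤ a * ε + b * ε := by gcongr
    _ = ε := by rw [← add_mul, hab, one_mul]

theorem mem_ulim_of_eventually {V : Type*} [SeminormedAddCommGroup V] {K : ℕ → Set V} {p : V}
    (h : ∀ᶠ j in (hyperfilter ℕ : Filter ℕ), p ∈ K j) : p ∈ ulim K := by
  intro ε hε
  filter_upwards [h] with j hj
  exact ⟨p, hj, by simpa using hε.le⟩

/-! ### linear maps fixing the arms -/

theorem fix_of_arm {n k : ℕ} (T : En n ≃L[ℝ] En n)
    (hT : ∀ i : Fin n, i.val < k → T (EuclideanSpace.single i 1) = EuclideanSpace.single i 1)
    (x : En n) (hx : ∀ i : Fin n, k ≤ i.val → x i = 0) : T x = x := by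
  have e : x = ∑ i, x i • (EuclideanSpace.single i (1 : ℝ) : En n) := by
    conv_lhs => rw [← (EuclideanSpace.basisFun (Fin n) ℝ).sum_repr x]
    simp
  conv_lhs => rw [e]
  conv_rhs => rw [e]
  rw [map_sum]
  refine Finset.sum_congr rfl fun i _ => ?_
  rw [map_smul]
  by_cases hi : i.val < k
  · rw [hT i hi]
  · rw [hx i (not_lt.1 hi), zero_smul, zero_smul]

theorem abs_coord_le {n : ℕ} (x : En n) (i : Fin n) : |x i| ≤ ‖x‖ := by
  have := EuclideanSpace.norm_eq x
  rw [this]
  refine Real.le_sqrt_of_sq_le ?_
  rw [← Real.norm_eq_abs]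
  exact Finset.single_le_sum (f := fun i => ‖x i‖ ^ 2) (fun _ _ => by positivity)
    (Finset.mem_univ i)

theorem abs_fst_le {n : ℕ} (p : En n × ℝ) (i : Fin n) : |p.1 i| ≤ ‖p‖ :=
  (abs_coord_le _ _).trans (norm_fst_le p)

theorem abs_snd_le {n : ℕ} (p : En n × ℝ) : |p.2| ≤ ‖p‖ := norm_snd_le p

/-- Orthant points with coordinates in `[a, b]` lie in a convex set that contains `a` times the
all-one point and its translates by `N` in the direction of each arm. -/
theorem orthant_mem {n k : ℕ} {S : Set (En n × ℝ)} (hS : Convex ℝ S) {a b : ℝ} (hab : a ≤ b)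
    (N : ℝ) (hN : ((n : ℝ) + 1) * (b - a) ≤ N) (hN0 : 0 < N)
    (h0 : (a • ones n k, a) ∈ S) (hz : (a • ones n k, a + N) ∈ S)
    (hi : ∀ i : Fin n, i.val < k → (a • ones n k + EuclideanSpace.single i N, a) ∈ S)
    (r : En n × ℝ) (hr2 : a ≤ r.2 ∧ r.2 ≤ b) (hr : ∀ i : Fin n, i.val < k → a ≤ r.1 i ∧ r.1 i ≤ b)
    (hr0 : ∀ i : Fin n, k ≤ i.val → r.1 i = 0) : r ∈ S := by
  classical
  -- weights
  set w : Option (Fin n) → ℝ := fun o => match o with
    | none => (r.2 - a) / N
    | some i => if i.val < k then (r.1 i - a) / N else 0 with hw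
  set P : Option (Fin n) → En n × ℝ := fun o => match o with
    | none => (a • ones n k, a + N)
    | some i => if i.val < k then (a • ones n k + EuclideanSpace.single i N, a)
        else (a • ones n k, a) with hP
  have hw0 : ∀ o, 0 ≤ w o := by
    intro o
    match o with
    | none => exact div_nonneg (by linarith [hr2.1]) hN0.le
    | some i =>
      simp only [hw]
      split_ifs with h
      · exact div_nonneg (by linarith [(hr i h).1]) hN0.le
      · exact le_rfl
  have hPS : ∀ o, P o ∈ S := by
    intro o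
    match o with
    | none => exact hz
    | some i =>
      simp only [hP]
      split_ifs with h
      · exact hi i h
      · exact h0
  have hsum : ∑ o, w o ≤ 1 := by
    rw [Fintype.sum_option]
    have h1 : w none ≤ (b - a) / N := by
      simp only [hw]
      exact div_le_div_of_nonneg_right (by linarith [hr2.2]) hN0.le
    have h2 : ∑ i : Fin n, w (some i) ≤ ∑ _i : Fin n, (b - a) / N := by
      refine Finset.sum_le_sum fun i _ => ?_
      simp only [hw]
      split_ifs with h
      · exact div_le_div_of_nonneg_right (by linarith [(hr i h).2]) hN0.le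
      · exact div_nonneg (by linarith) hN0.le
    rw [Finset.sum_const, Finset.card_univ, Fintype.card_fin, nsmul_eq_mul] at h2
    calc w none + ∑ i, w (some i) ≤ (b - a) / N + n * ((b - a) / N) := add_le_add h1 h2
      _ = ((n : ℝ) + 1) * (b - a) / N := by ring
      _ ≤ 1 := by rw [div_le_one hN0]; exact hN
  -- the convex combination
  have key : r = (1 - ∑ o, w o) • ((a • ones n k, a) : En n × ℝ) + ∑ o, w o • P o := by
    have e1 : ∀ i : Fin n, w (some i) • P (some i) =
        w (some i) • ((a • ones n k, a) : En n × ℝ) +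
          ((w (some i) * N) • (EuclideanSpace.single i (1 : ℝ) : En n), (0 : ℝ)) := by
      intro i
      simp only [hw, hP]
      split_ifs with h
      · ext j
        · simp
        · simp
      · ext j
        · simp
        · simp
    have e2 : w none • P none = w none • ((a • ones n k, a) : En n × ℝ) + (0, w none * N) := by
      simp only [hP]
      ext j
      · simp
      · simp [mul_add]
    rw [Fintype.sum_option, Fintype.sum_option, e2, Finset.sum_congr rfl fun i _ => e1 i,
      Finset.sum_add_distrib, ← Finset.sum_smul]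
    have e3 : (1 - (w none + ∑ i, w (some i))) • ((a • ones n k, a) : En n × ℝ) +
        (w none • ((a • ones n k, a) : En n × ℝ) + (0, w none * N) +
          ((∑ i, w (some i)) • ((a • ones n k, a) : En n × ℝ) +
            ∑ i, ((w (some i) * N) • (EuclideanSpace.single i (1 : ℝ) : En n), (0 : ℝ)))) =
        ((a • ones n k, a) : En n × ℝ) + (0, w none * N) +
          ∑ i, ((w (some i) * N) • (EuclideanSpace.single i (1 : ℝ) : En n), (0 : ℝ)) := by
      module
    rw [e3]
    ext j
    · have h4 : (∑ i, ((w (some i) * N) • (EuclideanSpace.single i (1 : ℝ) : En n), (0 : ℝ))).1 =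
          ∑ i, (w (some i) * N) • (EuclideanSpace.single i (1 : ℝ) : En n) := by
        rw [Prod.fst_sum]
      rw [Prod.fst_add, Prod.fst_add, h4]
      simp only [add_zero, PiLp.add_apply, PiLp.smul_apply, smul_eq_mul, ones]
      have h5 : (∑ i, (w (some i) * N) • (EuclideanSpace.single i (1 : ℝ) : En n)) j =
          w (some j) * N := by
        rw [WithLp.ofLp_sum, Finset.sum_apply]
        simp [Finset.sum_ite_eq]
      rw [h5]
      by_cases h : j.val < k
      · simp only [hw, h, if_true]
        field_simp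
        ring
      · simp only [hw, h, if_false]
        rw [hr0 j (not_lt.1 h)]
        simp
    · have h4 : (∑ i, ((w (some i) * N) • (EuclideanSpace.single i (1 : ℝ) : En n), (0 : ℝ))).2 =
          0 := by
        rw [Prod.snd_sum]; simp
      rw [Prod.snd_add, Prod.snd_add, h4]
      simp only [hw]
      field_simp
      ring
  rw [key]
  set W : ℝ := ∑ o, w o with hW
  have h6 : (1 - W) • ((a • ones n k, a) : En n × ℝ) + ∑ o, w o • P o =
      ∑ o : Option (Option (Fin n)), (Option.elim o (1 - W) w) •
        (Option.elim o ((a • ones n k, a) : En n × ℝ) P) :=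
    (Fintype.sum_option fun o : Option (Option (Fin n)) => (Option.elim o (1 - W) w) •
        (Option.elim o ((a • ones n k, a) : En n × ℝ) P)).symm
  rw [h6]
  refine hS.sum_mem ?_ ?_ ?_
  · intro o _
    match o with
    | none => simpa using hsum
    | some o => exact hw0 o
  · rw [Fintype.sum_option]
    simp only [Option.elim]
    rw [← hW]; ring
  · intro o _
    match o with
    | none => exact h0
    | some o => exact hPS o

/-! ### the limit wedge lemma -/

theorem ones_apply_lt {n k : ℕ} (i : Fin n) (hi : i.val < k) : ones n k i = 1 := by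
  simp [ones, hi]

theorem ones_apply_ge {n k : ℕ} (i : Fin n) (hi : k ≤ i.val) : ones n k i = 0 := by
  simp [ones, not_lt.2 hi]

theorem limitWedge (n k : ℕ) (hmax : Stmt_maxDet n k) (hpull : Stmt_admPull n)
    (hulim : Stmt_ulimAdm n) : Stmt_limitWedge n k := by
  classical
  intro K hcl hcv hadm h2 h3 h4 h5
  -- the slices
  set Y : ℕ → Set (En n) := fun j =>
    {y | (∀ i : Fin n, i.val < k → y i = 0) ∧ (ones n k + y, (1 : ℝ)) ∈ K j} with hY
  have hYc : ∀ j, IsCompact (Y j) := by
    intro j
    rw [Metric.isCompact_iff_isClosed_bounded]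
    constructor
    · have e : Y j = (⋂ i : Fin n, {y : En n | i.val < k → y i = 0}) ∩
          (fun y : En n => (ones n k + y, (1 : ℝ))) ⁻¹' (K j) := by
        ext y
        simp [hY]
      rw [e]
      refine IsClosed.inter (isClosed_iInter fun i => ?_) ((hcl j).preimage (by fun_prop))
      by_cases h : i.val < k
      · have : {y : En n | i.val < k → y i = 0} = {y : En n | y i = 0} := by
          ext y; simp [h]
        rw [this]
        exact isClosed_eq (by fun_prop) continuous_const
      · have : {y : En n | i.val < k → y i = 0} = Set.univ := by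
          ext y; simp [h]
        rw [this]
        exact isClosed_univ
    · obtain ⟨C, hC⟩ := (h4 j).exists_norm_le
      rw [isBounded_iff_forall_norm_le]
      refine ⟨C + ‖(ones n k : En n)‖, fun y hy => ?_⟩
      have h := hC (ones n k + y, (1 : ℝ)) ⟨hy.2, rfl, fun i hi => by
        simp [ones_apply_lt i hi, hy.1 i hi]⟩
      have h' : ‖ones n k + y‖ ≤ C := (norm_fst_le _).trans h
      calc ‖y‖ = ‖(ones n k + y) - ones n k‖ := by congr 1; abel
        _ ≤ ‖ones n k + y‖ + ‖(ones n k : En n)‖ := norm_sub_le _ _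
        _ ≤ _ := by linarith
  have hT : ∀ j, ∃ T : En n ≃L[ℝ] En n, (∀ x, ∀ i : Fin n, i.val < k → T x i = x i) ∧
    (∀ i : Fin n, i.val < k → T (EuclideanSpace.single i 1) = EuclideanSpace.single i 1) ∧
    (∀ m : Fin n, k ≤ m.val → T (EuclideanSpace.single m 1) ∈ Y j) ∧
    ∀ y ∈ Y j, ∀ m : Fin n, |T.symm y m| ≤ 1 := by
    intro j
    refine hmax (Y j) (hYc j) (fun y hy => hy.1) ?_
    obtain ⟨ε, hε, hε2⟩ := h5 j
    refine ⟨ε, hε, fun m hm => ⟨fun i hi => ?_, ?_⟩⟩
    · have : i ≠ m := by rintro rfl; omega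
      simp [this]
    · refine hε2 _ (fun i hi => ?_) ?_
      · have : i ≠ m := by rintro rfl; omega
        simp [this]
      · simp [abs_of_pos hε]
  choose T hT1 hT2 hT3 hT4 using hT
  set K' : ℕ → Set (En n × ℝ) := fun j => {p | (T j p.1, p.2) ∈ K j} with hK'
  have hK'pull : ∀ j, K' j = pull (T j) 0 1 0 0 (K j) := by
    intro j
    ext p
    simp [hK', pull]
  have hcont : ∀ j, Continuous fun p : En n × ℝ => (T j p.1, p.2) := fun j => by fun_prop
  have hK'cv : ∀ j, Convex ℝ (K' j) := by
    intro j p hp q hq a b ha hb hab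
    have := hcv j hp hq ha hb hab
    simp only [hK', Set.mem_ofPred_eq, Prod.fst_add, Prod.smul_fst, map_add, map_smul,
      Prod.snd_add, Prod.smul_snd] at this ⊢
    simpa using this
  have hK'adm : ∀ j, Adm (K' j) := by
    intro j
    rw [hK'pull]
    exact hpull _ _ _ _ _ _ one_pos (hadm j)
  -- orthant points
  have horth : ∀ p : En n × ℝ, 0 < p.2 → (∀ i : Fin n, i.val < k → 0 < p.1 i) →
      (∀ i : Fin n, k ≤ i.val → p.1 i = 0) → ∀ᶠ j in (hyperfilter ℕ : Filter ℕ), p ∈ K' j := by
    intro p hp1 hp2 hp3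
    have h := (h2 p hp1 hp2 hp3)
    rw [← Nat.cofinite_eq_atTop] at h
    have h' := hyperfilter_le_cofinite h
    filter_upwards [h'] with j hj
    change (T j p.1, p.2) ∈ K j
    rw [fix_of_arm (T j) (hT2 j) p.1 hp3]
    exact hj
  -- lower bounds of the arm coordinates
  have hlow : ∀ M δ : ℝ, 0 < δ → ∀ᶠ j in (hyperfilter ℕ : Filter ℕ), ∀ p ∈ K' j, p.2 ≤ M →
      (∀ i : Fin n, i.val < k → p.1 i ≤ M) → -δ ≤ p.2 ∧ ∀ i : Fin n, i.val < k → -δ ≤ p.1 i := by
    intro M δ hδ
    have h := h3 M δ hδ
    rw [← Nat.cofinite_eq_atTop] at h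
    have h' := hyperfilter_le_cofinite h
    filter_upwards [h'] with j hj p hp hp2 hp3
    have := hj (T j p.1, p.2) hp hp2 (fun i hi => by
      change T j p.1 i ≤ M
      rw [hT1 j p.1 i hi]; exact hp3 i hi)
    refine ⟨this.1, fun i hi => ?_⟩
    have h6 := this.2 i hi
    change -δ ≤ T j p.1 i at h6
    rwa [hT1 j p.1 i hi] at h6
  -- the exact slice
  have hslice : ∀ j, ∀ q ∈ K' j, q.2 = 1 → (∀ i : Fin n, i.val < k → q.1 i = 1) →
      ∀ m : Fin n, k ≤ m.val → |q.1 m| ≤ 1 := by
    intro j q hq hq2 hq1 m hm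
    have hmem : T j q.1 - ones n k ∈ Y j := by
      refine ⟨fun i hi => ?_, ?_⟩
      · rw [PiLp.sub_apply, hT1 j q.1 i hi, hq1 i hi, ones_apply_lt i hi, sub_self]
      · rw [add_sub_cancel]
        have : (T j q.1, q.2) ∈ K j := hq
        rwa [hq2] at this
    have h := hT4 j _ hmem m
    have hfix : T j (ones n k) = ones n k :=
      fix_of_arm (T j) (hT2 j) (ones n k) fun i hi => ones_apply_ge i hi
    have hfix' : (T j).symm (ones n k) = ones n k := by
      rw [ContinuousLinearEquiv.symm_apply_eq, hfix]
    rw [map_sub, ContinuousLinearEquiv.symm_apply_apply, hfix', PiLp.sub_apply,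
      ones_apply_ge m hm, sub_zero] at h
    exact h
  have hnz : ∀ p ∈ ulim K', 0 ≤ p.2 ∧ ∀ i : Fin n, i.val < k → 0 ≤ p.1 i := by
    intro p hp
    have key : ∀ δ : ℝ, 0 < δ → -(2 * δ) ≤ p.2 ∧ ∀ i : Fin n, i.val < k → -(2 * δ) ≤ p.1 i := by
      intro δ hδ
      obtain ⟨j, ⟨q, hq, hpq⟩, hj⟩ := ((hp δ hδ).and (hlow (‖p‖ + δ) δ hδ)).exists
      have b2 := abs_snd_le (p - q)
      rw [Prod.snd_sub] at b2
      have c2 := abs_le.1 (b2.trans hpq)
      have a2 := abs_le.1 (abs_snd_le p)
      have b1 : ∀ i, |p.1 i - q.1 i| ≤ δ := fun i => by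
        have := abs_fst_le (p - q) i
        rw [Prod.fst_sub, PiLp.sub_apply] at this
        exact this.trans hpq
      have h := hj q hq (by linarith) (fun i _ => by
        have := abs_le.1 (b1 i)
        have := abs_le.1 (abs_fst_le p i)
        linarith)
      refine ⟨by linarith [h.1], fun i hi => ?_⟩
      have := abs_le.1 (b1 i)
      linarith [h.2 i hi]
    constructor
    · by_contra hcon
      push Not at hcon
      have := (key (-p.2 / 4) (by linarith)).1
      linarith
    · intro i hi
      by_contra hcon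
      push Not at hcon
      have := (key (-p.1 i / 4) (by linarith)).2 i hi
      linarith
  refine ⟨ulim K', ?_⟩
  refine
    { closed := isClosed_ulim K'
      cvx := convex_ulim K' hK'cv
      adm := hulim K' hK'adm
      nonneg_z := fun p hp => (hnz p hp).1
      nonneg := fun p hp => (hnz p hp).2
      orth := ?_
      simplex := ?_
      box := ?_ }
  · intro p hp2 hp1 hp0 ε hε
    set s : ℝ := ε / (‖(ones n k : En n)‖ + 1) with hs
    have hs0 : 0 < s := by positivity
    have h := horth (p.1 + s • ones n k, p.2 + s) (by simpa using by linarith)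
      (fun i hi => by
        simp only [PiLp.add_apply, PiLp.smul_apply, smul_eq_mul, ones_apply_lt i hi]
        linarith [hp1 i hi])
      (fun i hi => by
        simp only [PiLp.add_apply, PiLp.smul_apply, smul_eq_mul, ones_apply_ge i hi, hp0 i hi]
        ring)
    filter_upwards [h] with j hj
    refine ⟨_, hj, ?_⟩
    have e : p - (p.1 + s • ones n k, p.2 + s) = (-(s • ones n k), -s) := by
      ext i
      · simp
      · simp
    have hs1 : s * (‖(ones n k : En n)‖ + 1) = ε := by
      rw [hs]; field_simp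
    rw [e, Prod.norm_mk, max_le_iff, norm_neg, norm_neg, norm_smul, Real.norm_of_nonneg hs0.le]
    constructor
    · nlinarith
    · nlinarith [norm_nonneg (ones n k : En n)]
  · intro m hm
    refine mem_ulim_of_eventually (Eventually.of_forall fun j => ?_)
    change (T j (ones n k + EuclideanSpace.single m 1), (1 : ℝ)) ∈ K j
    rw [map_add, fix_of_arm (T j) (hT2 j) (ones n k) fun i hi => ones_apply_ge i hi]
    exact (hT3 j m hm).2
  · intro p hp hp2 hp1 m hm
    have key : ∀ e : ℝ, 0 < e → e < 1 / 2 → |p.1 m| * (1 - e) ≤ 1 + e := by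
      intro e he he2
      -- bounded orthant points belong to `K' j`
      set b : ℝ := 2 / e with hb
      have hb2 : 2 ≤ b := by
        rw [hb, le_div_iff₀ he]; linarith
      set N : ℝ := ((n : ℝ) + 1) * (b - 1 / 2) with hN
      have hN0 : 0 < N := by
        have : (0 : ℝ) < (n : ℝ) + 1 := by positivity
        have : 0 < b - 1 / 2 := by linarith
        positivity
      have hc0 := horth ((1 / 2 : ℝ) • ones n k, 1 / 2) (by norm_num)
        (fun i hi => by simp [ones_apply_lt i hi]) (fun i hi => by simp [ones_apply_ge i hi])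
      have hcz := horth ((1 / 2 : ℝ) • ones n k, 1 / 2 + N) (by simp only; linarith)
        (fun i hi => by simp [ones_apply_lt i hi]) (fun i hi => by simp [ones_apply_ge i hi])
      have hci : ∀ᶠ j in (hyperfilter ℕ : Filter ℕ), ∀ i : Fin n, i.val < k →
          (((1 / 2 : ℝ) • ones n k + EuclideanSpace.single i N, 1 / 2) : En n × ℝ) ∈ K' j := by
        rw [eventually_all]
        intro i
        by_cases hi : i.val < k
        · have := horth ((1 / 2 : ℝ) • ones n k + EuclideanSpace.single i N, 1 / 2) (by norm_num)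
            (fun l hl => by
              by_cases h : l = i
              · subst h
                simp [ones_apply_lt l hl]; linarith
              · simp [ones_apply_lt l hl, h])
            (fun l hl => by
              have : l ≠ i := by rintro rfl; omega
              simp [ones_apply_ge l hl, this])
          exact this.mono fun j hj _ => hj
        · exact Eventually.of_forall fun j h => absurd h hi
      set δ : ℝ := e / 2 with hδ
      have hδ0 : 0 < δ := by positivity
      obtain ⟨j, ⟨⟨⟨⟨q, hq, hpq⟩, hj⟩, hj0⟩, hjz⟩, hji⟩ :=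
        (((((hp δ hδ0).and (hlow 2 1 one_pos)).and hc0).and hcz).and hci).exists
      have b2 : |p.2 - q.2| ≤ δ := by
        have := abs_snd_le (p - q)
        rw [Prod.snd_sub] at this
        exact this.trans hpq
      have b1 : ∀ i, |p.1 i - q.1 i| ≤ δ := fun i => by
        have := abs_fst_le (p - q) i
        rw [Prod.fst_sub, PiLp.sub_apply] at this
        exact this.trans hpq
      have d2 := abs_le.1 b2
      have u2 : q.2 ≤ 1 + δ := by linarith
      have u1 : ∀ i : Fin n, i.val < k → q.1 i ≤ 1 + δ := fun i hi => by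
        have := abs_le.1 (b1 i)
        linarith [hp1 i hi]
      have l := hj q hq (by linarith) (fun i hi => by linarith [u1 i hi])
      -- the auxiliary orthant point
      set r : En n × ℝ := (WithLp.toLp 2 fun i : Fin n =>
        if i.val < k then (1 - (1 - e) * q.1 i) / e else 0, (1 - (1 - e) * q.2) / e) with hr
      have bd : ∀ c : ℝ, c ≤ 1 + δ → -1 ≤ c →
          1 / 2 ≤ (1 - (1 - e) * c) / e ∧ (1 - (1 - e) * c) / e ≤ b := by
        intro c h1 h2
        rw [le_div_iff₀ he, hb, div_le_div_iff_of_pos_right he]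
        constructor
        · nlinarith
        · nlinarith
      have hrmem : r ∈ K' j := by
        refine orthant_mem (hK'cv j) (a := 1 / 2) (b := b) (by linarith) N le_rfl hN0 hj0 hjz hji r
          (bd q.2 u2 l.1) (fun i hi => ?_) (fun i hi => ?_)
        · have := bd (q.1 i) (u1 i hi) (l.2 i hi)
          simpa [hr, hi] using this
        · simp [hr, not_lt.2 hi]
      have hs := hK'cv j hq hrmem (by linarith : (0 : ℝ) ≤ 1 - e) he.le (by ring)
      have hs2 := hslice j _ hs ?_ ?_ m hm
      · have hrm : r.1 m = 0 := by simp [hr, not_lt.2 hm]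
        have e1 : ((1 - e) • q + e • r).1 m = (1 - e) * q.1 m := by
          simp [hrm]
        rw [e1, abs_mul, abs_of_pos (by linarith : (0 : ℝ) < 1 - e)] at hs2
        have h7 : |p.1 m| ≤ |q.1 m| + δ := by
          have := abs_sub_abs_le_abs_sub (p.1 m) (q.1 m)
          linarith [b1 m]
        have h8 : |p.1 m| * (1 - e) ≤ (|q.1 m| + δ) * (1 - e) :=
          mul_le_mul_of_nonneg_right h7 (by linarith)
        nlinarith
      · simp only [hr, Prod.snd_add, Prod.smul_snd, smul_eq_mul]
        field_simp
        ring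
      · intro i hi
        simp only [hr, Prod.fst_add, Prod.smul_fst, PiLp.add_apply, PiLp.smul_apply, smul_eq_mul,
          if_pos hi]
        field_simp
        ring
    by_contra hcon
    push Not at hcon
    -- let `e → 0`
    set A := |p.1 m| with hA
    have hA1 : 0 < A - 1 := by linarith
    have hA2 : 0 < A + 1 := by linarith
    set e : ℝ := min (1 / 4) ((A - 1) / (2 * (A + 1))) with he
    have he0 : 0 < e := by
      rw [he]; exact lt_min (by norm_num) (by positivity)
    have he1 : e ≤ 1 / 4 := min_le_left _ _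
    have he2 : e ≤ (A - 1) / (2 * (A + 1)) := min_le_right _ _
    have he3 : e * (2 * (A + 1)) ≤ A - 1 := by
      rwa [le_div_iff₀ (by positivity)] at he2
    have := key e he0 (by linarith)
    nlinarith

end Vale.Agent.P252.H422
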